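import Vale.Agent.P019.Main

open scoped TensorProduct

universe u

theorem Vale.Agent.Results.P019.Direct.result (ℓ : ℕ) [Fact ℓ.Prime] (k K l L : Type u)
    [Field k] [Field K] [Algebra k K] [IsAlgClosed k] [Field l] [Field L] [Algebra l L]
    [IsAlgClosed l]
    (hK : (⊤ : IntermediateField k K).FG) (hL : (⊤ : IntermediateField l L).FG)
    (hdK : 2 ≤ Algebra.trdeg k K) (_hdL : 2 ≤ Algebra.trdeg l L)
    (hk : ringChar k ≠ ℓ) (hl : ringChar l ≠ ℓ)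
    (Θ : ModN (Additive Kˣ) ℓ ≃ₗ[ZMod ℓ] ModN (Additive Lˣ) ℓ)
    (hΘ : (Submodule.span (ZMod ℓ) {t | ∃ x y : Kˣ, (x : K) + (y : K) = 1 ∧
          t = ModN.mkQ ℓ (Additive.ofMul x) ⊗ₜ[ZMod ℓ] ModN.mkQ ℓ (Additive.ofMul y)}).map
        (TensorProduct.map Θ.toLinearMap Θ.toLinearMap) =
      Submodule.span (ZMod ℓ) {t | ∃ x y : Lˣ, (x : L) + (y : L) = 1 ∧
          t = ModN.mkQ ℓ (Additive.ofMul x) ⊗ₜ[ZMod ℓ] ModN.mkQ ℓ (Additive.ofMul y)}) :
    ∃ (c : ZMod ℓ)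
      (α : perfectClosure K (AlgebraicClosure K) ≃+* perfectClosure L (AlgebraicClosure L)),
      c ≠ 0 ∧
      (α '' Set.range (fun a : k => algebraMap K (perfectClosure K (AlgebraicClosure K))
          (algebraMap k K a)) =
        Set.range (fun b : l => algebraMap L (perfectClosure L (AlgebraicClosure L))
          (algebraMap l L b))) ∧
      ∀ (x : Kˣ) (y : Lˣ) (y' z : (perfectClosure L (AlgebraicClosure L))ˣ),
        Θ (ModN.mkQ ℓ (Additive.ofMul x)) = ModN.mkQ ℓ (Additive.ofMul y) →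
        y'.val = algebraMap L _ y.val → z.val = α (algebraMap K _ x.val) →
        ModN.mkQ ℓ (Additive.ofMul y') = c • ModN.mkQ ℓ (Additive.ofMul z) := by
  obtain ⟨c, α, hc, h1, h2⟩ := Vale.Agent.P019.main hK hL hdK hk hl Θ hΘ
  refine ⟨c, α, hc, ?_, fun x y y' z h hy hz => ?_⟩
  · ext y
    constructor
    · rintro ⟨_, ⟨a, rfl⟩, rfl⟩
      exact (h1 _).1 ⟨a, rfl⟩
    · intro hy
      obtain ⟨a, ha⟩ := (h1 y).2 hy
      exact ⟨_, ⟨a, rfl⟩, ha⟩
  · have h3 := h2 x y (by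
      rw [Vale.Agent.P019.cl_unit, Vale.Agent.P019.cl_unit]
      exact h)
    rw [← hy, ← hz, Vale.Agent.P019.cl_unit, Vale.Agent.P019.cl_unit] at h3
    exact h3
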