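import Vale.Agent.P019.Main

open scoped TensorProduct

universe u

open Vale.Agent.P019 in
theorem Vale.Agent.Results.P019.Reconstruction.result (ℓ : ℕ) [Fact ℓ.Prime] (k K l L : Type u)
    [Field k] [Field K] [Algebra k K] [IsAlgClosed k] [Field l] [Field L] [Algebra l L]
    [IsAlgClosed l]
    (hK : (⊤ : IntermediateField k K).FG) (hL : (⊤ : IntermediateField l L).FG)
    (hdK : 2 ≤ Algebra.trdeg k K) (_hdL : 2 ≤ Algebra.trdeg l L)
    (hk : ringChar k ≠ ℓ) (hl : ringChar l ≠ ℓ)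
    (Θ : V ℓ K ≃ₗ[ZMod ℓ] V ℓ L)
    (hΘ : (Rsub ℓ K).map (TensorProduct.map Θ.toLinearMap Θ.toLinearMap) = Rsub ℓ L) :
    ∃ (c : ZMod ℓ)
      (α : perfectClosure K (AlgebraicClosure K) ≃+* perfectClosure L (AlgebraicClosure L)),
      c ≠ 0 ∧
      (α '' Set.range (fun a : k => algebraMap K (perfectClosure K (AlgebraicClosure K))
          (algebraMap k K a)) =
        Set.range (fun b : l => algebraMap L (perfectClosure L (AlgebraicClosure L))
          (algebraMap l L b))) ∧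
      ∀ (x : Kˣ) (y : Lˣ), Θ (clu ℓ x) = clu ℓ y →
        clu ℓ (Units.map (algebraMap L (perfectClosure L (AlgebraicClosure L))).toMonoidHom y) =
          c • clu ℓ (Units.map α.toRingHom.toMonoidHom (Units.map
            (algebraMap K (perfectClosure K (AlgebraicClosure K))).toMonoidHom x)) := by
  obtain ⟨c, α, hc, h1, h2⟩ := main hK hL hdK hk hl Θ hΘ
  refine ⟨c, α, hc, ?_, fun x y h => ?_⟩
  · ext y
    constructor
    · rintro ⟨_, ⟨a, rfl⟩, rfl⟩
      exact (h1 _).1 ⟨a, rfl⟩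
    · intro hy
      obtain ⟨a, ha⟩ := (h1 y).2 hy
      exact ⟨_, ⟨a, rfl⟩, ha⟩
  · rw [← cl_unit, ← cl_unit]
    exact h2 x y (by rw [cl_unit, cl_unit, h])
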